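import Vale.Agent.P133.R2.H307.Spec2
import Vale.Agent.P133.H832.Tame1

/-!
P133 (helper438): row I2, what a certificate proves.
-/

open scoped ComplexOrder

namespace Vale.Agent.P133.R2.H438

open Vale.Agent.P133.H832 Vale.Agent.P133.Statement Vale.Agent.P133F Vale.Agent.P133.R2.H28
  Vale.Agent.P133.R2.H307

universe u

theorem map_real_smul {D B : Type u} [NonUnitalCStarAlgebra D] [NonUnitalCStarAlgebra B]
    (φ : D →⋆ₙₐ[ℂ] B) (r : ℝ) (x : D) : φ (r • x) = r • φ x := by
  rw [← Complex.coe_smul, map_smul, Complex.coe_smul]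

theorem ramp_mul_cut {D : Type u} [NonUnitalCStarAlgebra D] [PartialOrder D] [StarOrderedRing D]
    (a : D) {δ : ℝ} (hδ : 0 < δ) : ramp δ a * R2.H28.cut a δ = R2.H28.cut a δ := by
  unfold ramp R2.H28.cut
  have hf : Continuous (fun s : ℝ => min (max (2 * s / δ - 1) 0) 1) := by fun_prop
  have hg : Continuous (fun s : ℝ => max (s - δ) 0) := by fun_prop
  have hf0 : (fun s : ℝ => min (max (2 * s / δ - 1) 0) 1) 0 = 0 := by
    simp
  have hg0 : (fun s : ℝ => max (s - δ) 0) 0 = 0 := by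
    simp only [zero_sub]
    exact max_eq_right (by linarith)
  rw [← cfcₙ_mul _ _ a hf.continuousOn hf0 hg.continuousOn hg0]
  congr 1
  funext s
  rcases le_or_gt s δ with h | h
  · rw [max_eq_right (by linarith : s - δ ≤ 0), mul_zero]
  · have h1 : 1 ≤ 2 * s / δ - 1 := by
      rw [le_sub_iff_add_le, le_div_iff₀ hδ]
      linarith
    rw [min_eq_right (h1.trans (le_max_left _ _)), one_mul]

/-- Row I2 -/
theorem specImp : SpecImp.{u} := by
  intro D _ _ _ a ha δ hδ d M κ n w w' hd hM hC J hJ hcut l hl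
  obtain ⟨B, _, _, _, φ, _, hφ⟩ := hJ.quot
  obtain ⟨hκ, h1, h2⟩ := hC
  have hnorm : ∀ x, ‖φ x‖ ≤ ‖x‖ := fun x => NonUnitalStarAlgHom.norm_apply_le φ x
  have hl' : φ d * φ a = l • φ a := by
    have h3 := (hφ _).2 hl
    rw [map_sub, map_mul, map_real_smul, sub_eq_zero] at h3
    exact h3
  have hada : φ (a * d * a) = l • φ (a * a) := by
    rw [map_mul, map_mul, map_mul, mul_assoc, hl', mul_smul_comm]
  have hterm : ∀ v : D, φ (star v * (a * d * a) * v) = l • φ (star v * (a * a) * v) := by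
    intro v
    rw [map_mul, map_mul, hada, map_mul φ (star v * (a * a)) v, map_mul φ (star v) (a * a),
      mul_smul_comm, smul_mul_assoc]
  have hS : φ (∑ i, (star (w i) * (a * d * a) * w i - star (w' i) * (a * d * a) * w' i)) =
      l • φ (∑ i, (star (w i) * (a * a) * w i - star (w' i) * (a * a) * w' i)) := by
    rw [map_sum, map_sum, Finset.smul_sum]
    refine Finset.sum_congr rfl (fun i _ => ?_)
    rw [map_sub, map_sub, hterm, hterm, smul_sub]
  set S1 := ∑ i, (star (w i) * (a * a) * w i - star (w' i) * (a * a) * w' i) with hS1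
  set S2 := ∑ i, (star (w i) * (a * d * a) * w i - star (w' i) * (a * d * a) * w' i) with hS2
  have hM0 : 0 < M := by
    have := norm_nonneg d
    linarith
  have hS2n : ‖φ S2‖ < κ := by
    rw [hS, norm_smul, Real.norm_eq_abs]
    by_cases h0 : φ a = 0
    · have h4 : φ S1 = 0 := by
        rw [hS1, map_sum]
        refine Finset.sum_eq_zero (fun i _ => ?_)
        simp only [map_sub, map_mul, h0, mul_zero, zero_mul, sub_zero]
      rw [h4, norm_zero, mul_zero]
      exact hκ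
    · have h5 : 0 < ‖φ a‖ := norm_pos_iff.2 h0
      have h6 : |l| * ‖φ a‖ ≤ M * ‖φ a‖ := by
        have h7 : ‖φ d * φ a‖ = |l| * ‖φ a‖ := by rw [hl', norm_smul, Real.norm_eq_abs]
        rw [← h7]
        refine (norm_mul_le _ _).trans (mul_le_mul_of_nonneg_right ?_ h5.le)
        exact (hnorm d).trans (by linarith)
      have h7 : |l| ≤ M := le_of_mul_le_mul_right h6 h5
      refine lt_of_le_of_lt ?_ h1
      exact mul_le_mul h7 (hnorm S1) (norm_nonneg _) hM0.le
  have h3 : ‖φ S2 - (4 * κ) • φ (ramp δ a)‖ < κ := by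
    have h4 : φ S2 - (4 * κ) • φ (ramp δ a) = φ (S2 - (4 * κ) • ramp δ a) := by
      rw [map_sub, map_real_smul]
    rw [h4]
    exact (hnorm _).trans_lt h2
  have h4 : ‖(4 * κ) • φ (ramp δ a)‖ < 2 * κ := by
    have h5 : (4 * κ) • φ (ramp δ a) = φ S2 - (φ S2 - (4 * κ) • φ (ramp δ a)) := by abel
    rw [h5]
    exact (norm_sub_le _ _).trans_lt (by linarith)
  rw [norm_smul, Real.norm_eq_abs, abs_of_pos (by linarith)] at h4
  have h5 : ‖φ (ramp δ a)‖ < 1 := by
    by_contra hc
    push Not at hc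
    nlinarith
  have h6 : φ (R2.H28.cut a δ) ≠ 0 := fun h => hcut ((hφ _).1 h)
  have h7 : 0 < ‖φ (R2.H28.cut a δ)‖ := norm_pos_iff.2 h6
  have h8 : ‖φ (R2.H28.cut a δ)‖ ≤ ‖φ (ramp δ a)‖ * ‖φ (R2.H28.cut a δ)‖ := by
    conv_lhs => rw [← ramp_mul_cut a hδ, map_mul]
    exact norm_mul_le _ _
  nlinarith

end Vale.Agent.P133.R2.H438
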